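import Crest.Agent.R330.IA2

/-! # Row 330, Mat/A (statements frozen; see `R330/Blueprint.lean`) -/

set_option autoImplicit false
set_option linter.unusedSectionVars false

noncomputable section

open MeasureTheory Filter Topology
open scoped InnerProductSpace ContDiff Matrix
open Crest.MathPhysics.MatrixQM (GammaNine)

namespace Crest.Agent.R330

variable {E F : Type} [NormedAddCommGroup E] [InnerProductSpace ℝ E] [FiniteDimensional ℝ E]
  [MeasurableSpace E] [BorelSpace E]
  [NormedAddCommGroup F] [InnerProductSpace ℂ F] [FiniteDimensional ℂ F]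
  {𝔤 : Lie E} (C : Cl (Th E) F) (σ : Spn)

open scoped ComplexOrder

instance unitaryGroup_compact (n : Type) [Fintype n] [DecidableEq n] :
    CompactSpace (Matrix.unitaryGroup n ℂ) := by
  refine isCompact_iff_compactSpace.1 ?_
  have h1 : IsCompact (Set.pi Set.univ fun _ : n => Set.pi Set.univ fun _ : n => Metric.closedBall (0 : ℂ) 1) :=
    isCompact_univ_pi fun _ => isCompact_univ_pi fun _ => isCompact_closedBall _ _
  refine h1.of_isClosed_subset ?_ fun U hU i _ j _ => by
    simpa using entry_norm_bound_of_unitary hU i j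
  have : (Matrix.unitaryGroup n ℂ : Set (Matrix n n ℂ)) = {U | star U * U = 1} :=
    Set.ext fun U => Matrix.mem_unitaryGroup_iff'
  change IsClosed (Matrix.unitaryGroup n ℂ : Set (Matrix n n ℂ))
  rw [this]
  exact isClosed_eq (by fun_prop) continuous_const

open scoped Matrix.Norms.L2Operator in
/-- Every unitary matrix is the exponential of `i` times a Hermitian matrix commuting with
everything that commutes with it. -/
theorem exists_exp_unitary {n : Type} [Fintype n] [DecidableEq n] (u : Matrix.unitaryGroup n ℂ) :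
    ∃ h : Matrix n n ℂ, h.IsHermitian ∧ (u : Matrix n n ℂ) = NormedSpace.exp (Complex.I • h) ∧
      ∀ A : Matrix n n ℂ, A * (u : Matrix n n ℂ) = (u : Matrix n n ℂ) * A → A * h = h * A := by
  have hn : IsStarNormal (u : Matrix n n ℂ) := isStarNormal_of_mem_unitary u.2
  have hf : (spectrum ℂ (u : Matrix n n ℂ)).Finite := Matrix.finite_spectrum _
  refine ⟨cfc (fun z : ℂ => (z.arg : ℂ)) (u : Matrix n n ℂ), ?_, ?_, fun A hA => ?_⟩
  · change star _ = _
    rw [← cfc_star]; simp
  · rw [← cfc_smul Complex.I (fun z : ℂ => (z.arg : ℂ)) _ (hf.continuousOn _), ← CFC.complex_exp_eq_normedSpace_exp,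
      ← cfc_comp' Complex.exp _ _ (Complex.continuous_exp.continuousOn) (hf.continuousOn _)]
    conv_lhs => rw [← cfc_id' ℂ (u : Matrix n n ℂ)]
    refine cfc_congr fun z hz => ?_
    have h1 : ‖z‖ = 1 := by simpa using spectrum.subset_circle_of_unitary u.2 hz
    have := Complex.norm_mul_exp_arg_mul_I z
    rw [h1] at this
    simpa [mul_comm] using this.symm
  · have h1 : Commute (u : Matrix n n ℂ) A := hA.symm
    have h2 : Commute (star (u : Matrix n n ℂ)) A := by
      have a1 : star (u : Matrix n n ℂ) * u = 1 := u.2.1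
      have a2 : (u : Matrix n n ℂ) * star (u : Matrix n n ℂ) = 1 := u.2.2
      calc star (u : Matrix n n ℂ) * A = star (u : Matrix n n ℂ) * (A * u) * star (u : Matrix n n ℂ) := by
            simp only [mul_assoc, a2, mul_one]
        _ = A * star (u : Matrix n n ℂ) := by rw [hA, ← mul_assoc, a1, one_mul]
    exact (h1.cfc h2 _).symm

theorem exp_I_mem_unitary {n : Type} [Fintype n] [DecidableEq n] {h : Matrix n n ℂ}
    (hh : h.IsHermitian) : NormedSpace.exp (Complex.I • h) ∈ Matrix.unitaryGroup n ℂ := by
  rw [Matrix.mem_unitaryGroup_iff', Matrix.star_eq_conjTranspose, ← Matrix.exp_conjTranspose,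
    ← Matrix.exp_add_of_commute]
  · simp [Matrix.conjTranspose_smul, hh.eq]
  · simp only [Matrix.conjTranspose_smul, hh.eq]
    exact ((Commute.refl h).smul_left _).smul_right _

open scoped Matrix.Norms.Operator in
/-- `exp (ad ξ)` is conjugation (only the bracket relation and injectivity are used). -/
theorem map_rexp'_br {n : Type} [Fintype n] [DecidableEq n] (m : E →ₗ[ℝ] Matrix n n ℂ)
    (hbr : ∀ u v, m (𝔤.br u v) = Complex.I • (m u * m v - m v * m u)) (ξ v : E) :
    m (rexp' (𝔤.br ξ) v) =
      NormedSpace.exp (Complex.I • m ξ) * m v * NormedSpace.exp (-(Complex.I • m ξ)) := by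
  set X : Matrix n n ℂ := Complex.I • m ξ with hX
  set A : E →L[ℝ] E := LinearMap.toContinuousLinearMap (𝔤.br ξ) with hA
  set M : E →L[ℝ] Matrix n n ℂ := LinearMap.toContinuousLinearMap m with hM
  have hd : ∀ t : ℝ, HasDerivAt (fun t : ℝ => NormedSpace.exp (t • (-X)) * M (NormedSpace.exp (t • A) v) *
      NormedSpace.exp (t • X)) 0 t := fun t => by
    have h1 := hasDerivAt_exp_smul_const (𝕂 := ℝ) (-X) t
    have h2 := hasDerivAt_exp_smul_const' (𝕂 := ℝ) X t
    have h3 := M.hasFDerivAt.comp_hasDerivAt t
      ((hasDerivAt_exp_smul_const' (𝕂 := ℝ) A t).clm_apply (hasDerivAt_const t v))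
    refine ((h1.mul h3).mul h2).congr_deriv ?_
    have e1 : ∀ w, M (A w) = X * M w - M w * X := fun w => by
      simp [hM, hA, hX, hbr, smul_sub]
    simp only [Function.comp_apply, map_zero, add_zero, mul_apply_eq_comp, Pi.mul_apply]
    erw [e1]
    noncomm_ring
  have h0 := is_const_of_deriv_eq_zero (fun t => (hd t).differentiableAt) (fun t => (hd t).deriv) 1 0
  simp only [one_smul, zero_smul, NormedSpace.exp_zero, one_mul, mul_one, one_apply_eq_self] at h0
  have e2 : NormedSpace.exp X * NormedSpace.exp (-X) = 1 := by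
    rw [← Matrix.exp_add_of_commute _ _ (Commute.refl X).neg_right]; simp
  change M (NormedSpace.exp A v) = NormedSpace.exp X * M v * NormedSpace.exp (-X)
  rw [← h0]
  simp only [← mul_assoc, e2, one_mul]
  rw [mul_assoc, e2, mul_one]

end Crest.Agent.R330

end
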