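import Crest.Agent.R330.IA1

/-! # Row 330, Mat/B (statements frozen; see `R330/Blueprint.lean`) -/

set_option autoImplicit false
set_option linter.unusedSectionVars false

noncomputable section

open MeasureTheory Filter Topology
open scoped InnerProductSpace ContDiff Matrix
open Crest.MathPhysics.MatrixQM (GammaNine)

namespace Crest.Agent.R330

variable {E F : Type} [NormedAddCommGroup E] [InnerProductSpace ℝ E] [FiniteDimensional ℝ E]
  [MeasurableSpace E] [BorelSpace E]
  [NormedAddCommGroup F] [InnerProductSpace ℂ F] [FiniteDimensional ℂ F]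
  {𝔤 : Lie E} (C : Cl (Th E) F) (σ : Spn)

lemma matB_one' {n β : Type} [Fintype n] [DecidableEq n] [Fintype β] (π : n → β) (A : Matrix n n ℂ)
    (hA : A.IsHermitian) (hπ : ∀ a b, π a ≠ π b → A a b = 0) :
    ∃ u : Matrix.unitaryGroup n ℂ, (∀ a b, π a ≠ π b → (u : Matrix n n ℂ) a b = 0) ∧
      ∃ d : n → ℝ, (u : Matrix n n ℂ) * A * star (u : Matrix n n ℂ) = Matrix.diagonal fun a => (d a : ℂ) := by
  classical
  let e := (Equiv.sigmaFiberEquiv π).symm
  let Φ : (∀ c, Matrix {a // π a = c} {a // π a = c} ℂ) → Matrix n n ℂ := fun M =>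
    (Matrix.blockDiagonal' M).submatrix e e
  have hmul : ∀ M N, Φ M * Φ N = Φ fun c => M c * N c := fun M N => by
    simp only [Φ, Matrix.blockDiagonal'_mul, Matrix.submatrix_mul_equiv]
  have hstar : ∀ M, star (Φ M) = Φ fun c => star (M c) := fun M => by
    simp only [Φ, Matrix.star_eq_conjTranspose, Matrix.conjTranspose_submatrix, Matrix.blockDiagonal'_conjTranspose]
  have hdiag : ∀ d : ∀ c, {a // π a = c} → ℂ, (Φ fun c => Matrix.diagonal (d c)) =
      Matrix.diagonal fun a => d (π a) ⟨a, rfl⟩ := fun d => by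
    simp only [Φ, Matrix.blockDiagonal'_diagonal, Matrix.submatrix_diagonal_equiv]
    rfl
  have hne : ∀ M a b, π a ≠ π b → Φ M a b = 0 := fun M a b h => Matrix.blockDiagonal'_apply_ne M _ _ h
  let B : ∀ c, Matrix {a // π a = c} {a // π a = c} ℂ := fun c => A.submatrix Subtype.val Subtype.val
  have hB : ∀ c, (B c).IsHermitian := fun c => hA.submatrix _
  have hAB : A = Φ B := by
    ext a b
    by_cases h : π a = π b
    · have : e b = ⟨π a, ⟨b, h.symm⟩⟩ := (Equiv.symm_apply_eq _).2 rfl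
      simp only [Φ, Matrix.submatrix_apply, this]
      exact (Matrix.blockDiagonal'_apply_eq B (π a) ⟨a, rfl⟩ ⟨b, h.symm⟩).symm
    · rw [hne _ _ _ h, hπ _ _ h]
  refine ⟨⟨Φ fun c => star ((hB c).eigenvectorUnitary : Matrix _ _ ℂ), Matrix.mem_unitaryGroup_iff.2 ?_⟩, hne _,
    fun a => (hB (π a)).eigenvalues ⟨a, rfl⟩, ?_⟩
  · rw [hstar, hmul]
    simp only [star_star, Unitary.coe_star_mul_self, ← Matrix.diagonal_one]
    exact hdiag fun _ _ => 1
  · have h := fun c => (hB c).conjStarAlgAut_star_eigenvectorUnitary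
    simp only [Unitary.conjStarAlgAut_apply, Unitary.coe_star] at h
    rw [hAB]
    simp only [hstar, hmul, h]
    exact hdiag fun c => RCLike.ofReal ∘ (hB c).eigenvalues

lemma matB_one {n β : Type} [Fintype n] [DecidableEq n] (π : n → β) (A : Matrix n n ℂ)
    (hA : A.IsHermitian) (hπ : ∀ a b, π a ≠ π b → A a b = 0) :
    ∃ u : Matrix.unitaryGroup n ℂ, (∀ a b, π a ≠ π b → (u : Matrix n n ℂ) a b = 0) ∧
      ∃ d : n → ℝ, (u : Matrix n n ℂ) * A * star (u : Matrix n n ℂ) = Matrix.diagonal fun a => (d a : ℂ) := by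
  classical
  obtain ⟨u, hu, h⟩ := matB_one' (Set.rangeFactorization π) A hA fun a b h => hπ a b fun e => h (Subtype.ext e)
  exact ⟨u, fun a b h => hu a b fun e => h (congrArg Subtype.val e), h⟩

lemma matB_mul {n β : Type} [Fintype n] (π : n → β) {A B : Matrix n n ℂ} (hA : ∀ a b, π a ≠ π b → A a b = 0)
    (hB : ∀ a b, π a ≠ π b → B a b = 0) (a b : n) (h : π a ≠ π b) : (A * B) a b = 0 := by
  rw [Matrix.mul_apply]
  refine Finset.sum_eq_zero fun c _ => ?_
  by_cases e : π a = π c
  · rw [hB c b (e ▸ h), mul_zero]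
  · rw [hA a c e, zero_mul]

lemma matB_ind {n ι : Type} [Fintype n] [DecidableEq n] (s : Finset ι) : ∀ {β : Type} (π : n → β)
    (A : ι → Matrix n n ℂ), (∀ i, (A i).IsHermitian) → (∀ i j, A i * A j = A j * A i) →
    (∀ i a b, π a ≠ π b → A i a b = 0) →
    ∃ u : Matrix.unitaryGroup n ℂ, (∀ a b, π a ≠ π b → (u : Matrix n n ℂ) a b = 0) ∧
      ∀ i ∈ s, ∃ d : n → ℝ, (u : Matrix n n ℂ) * A i * star (u : Matrix n n ℂ) =
        Matrix.diagonal fun a => (d a : ℂ) := by
  classical
  induction s using Finset.induction_on with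
  | empty =>
    exact fun π A _ _ _ => ⟨1, fun a b h => Matrix.one_apply_ne fun e => h (e ▸ rfl), by simp⟩
  | insert k s hk ih =>
    intro β π A hA hc hπ
    obtain ⟨u, hu, d, hd⟩ := matB_one π (A k) (hA k) (hπ k)
    have hu' : ∀ a b, π a ≠ π b → (star (u : Matrix n n ℂ)) a b = 0 := fun a b h => by
      rw [Matrix.star_apply, hu b a h.symm, star_zero]
    have huu : star (u : Matrix n n ℂ) * u = 1 := Unitary.coe_star_mul_self u
    have hm : ∀ i j, (u : Matrix n n ℂ) * A i * star (u : Matrix n n ℂ) * (u * A j * star (u : Matrix n n ℂ)) =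
        u * (A i * A j) * star (u : Matrix n n ℂ) := fun i j => by
      calc _ = (u : Matrix n n ℂ) * A i * (star (u : Matrix n n ℂ) * u) * A j * star (u : Matrix n n ℂ) := by
            simp only [mul_assoc]
        _ = _ := by rw [huu, mul_one, mul_assoc (u : Matrix n n ℂ)]
    obtain ⟨v, hv, h⟩ := ih (fun a => (π a, d a)) (fun i => (u : Matrix n n ℂ) * A i * star (u : Matrix n n ℂ))
      (fun i => Matrix.isHermitian_mul_mul_conjTranspose _ (hA i)) (fun i j => by rw [hm, hm, hc]) fun i a b h => by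
        by_cases e : π a = π b
        · have h1 : d a ≠ d b := fun e' => h (Prod.ext e e')
          have h2 := hm i k
          rw [hc, ← hm, hd] at h2
          have h3 := congrFun (congrFun h2 a) b
          rw [Matrix.mul_diagonal, Matrix.diagonal_mul, mul_comm] at h3
          exact (mul_eq_mul_right_iff.1 h3).resolve_left fun e' => h1 (by exact_mod_cast e'.symm)
        · exact matB_mul π (matB_mul π hu (hπ i)) hu' a b e
    have hv' : ∀ a b, π a ≠ π b → (v : Matrix n n ℂ) a b = 0 := fun a b h => hv a b fun e => h (congrArg Prod.fst e)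
    have he : ∀ i, ((v * u : Matrix.unitaryGroup n ℂ) : Matrix n n ℂ) * A i * star ((v * u : Matrix.unitaryGroup n ℂ) :
        Matrix n n ℂ) = v * (u * A i * star (u : Matrix n n ℂ)) * star (v : Matrix n n ℂ) := fun i => by
      simp only [Submonoid.coe_mul, star_mul, mul_assoc]
    refine ⟨v * u, matB_mul π hv' hu, fun i hi => ?_⟩
    rw [he]
    rcases Finset.mem_insert.1 hi with rfl | hi
    · refine ⟨d, ?_⟩
      have h1 : (v : Matrix n n ℂ) * Matrix.diagonal (fun a => (d a : ℂ)) = Matrix.diagonal (fun a => (d a : ℂ)) * v := by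
        ext a b
        rw [Matrix.mul_diagonal, Matrix.diagonal_mul]
        by_cases e : d a = d b
        · rw [e, mul_comm]
        · rw [hv a b fun e' => e (congrArg Prod.snd e'), mul_zero, zero_mul]
      rw [hd, h1, mul_assoc, show (v : Matrix n n ℂ) * star (v : Matrix n n ℂ) = 1 from Unitary.coe_mul_star_self v,
        mul_one]
    · exact h i hi

/-- Simultaneous unitary diagonalisation of commuting Hermitian matrices, by a unitary that is
block diagonal for a partition `π` when the matrices are. -/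
theorem exists_simul_diag {n ι β : Type} [Fintype n] [DecidableEq n] [Fintype ι] (π : n → β)
    (A : ι → Matrix n n ℂ) (hA : ∀ i, (A i).IsHermitian) (hc : ∀ i j, A i * A j = A j * A i)
    (hπ : ∀ i a b, π a ≠ π b → A i a b = 0) :
    ∃ u : Matrix.unitaryGroup n ℂ, (∀ a b, π a ≠ π b → (u : Matrix n n ℂ) a b = 0) ∧
      ∃ d : ι → n → ℝ, ∀ i, (u : Matrix n n ℂ) * A i * star (u : Matrix n n ℂ) =
        Matrix.diagonal fun a => (d i a : ℂ) := by
  obtain ⟨u, hu, h⟩ := matB_ind Finset.univ π A hA hc hπ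
  choose d hd using h
  exact ⟨u, hu, fun i => d i (Finset.mem_univ i), fun i => hd i _⟩

lemma matB_frob {n : Type} [Fintype n] (M : Matrix n n ℂ) :
    ∑ a, ∑ b, ‖M a b‖ ^ 2 = (M * star M).trace.re := by
  simp only [Matrix.trace, Matrix.diag_apply, Matrix.mul_apply, Matrix.star_apply, Complex.re_sum, RCLike.star_def,
    Complex.mul_conj, Complex.ofReal_re, Complex.sq_norm]

lemma matB_row {n : Type} [Fintype n] [DecidableEq n] {M : Matrix n n ℂ} (h : M * star M = 1) (a : n) :
    ∑ b, ‖M a b‖ ^ 2 = 1 := by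
  have := congrArg Complex.re (congrFun (congrFun h a) a)
  simpa only [Matrix.mul_apply, Matrix.star_apply, Complex.re_sum, RCLike.star_def,
    Complex.mul_conj, Complex.ofReal_re, Complex.sq_norm, Matrix.one_apply_eq, Complex.one_re] using this

/-- Hoffman–Wielandt for tuples, with a block structure. -/
theorem hoffman_wielandt {n ι β : Type} [Fintype n] [DecidableEq n] [Fintype ι] (π : n → β)
    (u : Matrix.unitaryGroup n ℂ) (hu : ∀ a b, π a ≠ π b → (u : Matrix n n ℂ) a b = 0)
    (d d' : ι → n → ℝ) : ∃ s : Equiv.Perm n, (∀ a, π (s a) = π a) ∧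
      ∑ i, ∑ a, (d i a - d' i (s a)) ^ 2 ≤
        ∑ i, ∑ a, ∑ b, ‖(Matrix.diagonal (fun a => (d i a : ℂ)) -
          (u : Matrix n n ℂ) * Matrix.diagonal (fun a => (d' i a : ℂ)) *
            star (u : Matrix n n ℂ)) a b‖ ^ 2 := by
  have h1 : (u : Matrix n n ℂ) * star (u : Matrix n n ℂ) = 1 := Unitary.coe_mul_star_self u
  have h2 : star (u : Matrix n n ℂ) * u = 1 := Unitary.coe_star_mul_self u
  let P : Matrix n n ℝ := Matrix.of fun a b => ‖(u : Matrix n n ℂ) a b‖ ^ 2
  have hP : P ∈ doublyStochastic ℝ n := mem_doublyStochastic_iff_sum.2 ⟨fun a b => sq_nonneg _, matB_row h1, fun b => by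
    simpa only [Matrix.star_apply, norm_star, P, Matrix.of_apply] using matB_row (M := star (u : Matrix n n ℂ)) (by rwa [star_star]) b⟩
  obtain ⟨w, hw0, hw1, hw⟩ := exists_eq_sum_perm_of_mem_doublyStochastic hP
  have hPw : ∀ a b, P a b = ∑ s : Equiv.Perm n, if s a = b then w s else 0 := fun a b => by
    rw [← hw, Matrix.sum_apply]
    exact Finset.sum_congr rfl fun s _ => by simp [Equiv.toPEquiv_apply]
  have e1 : ∀ i, ∑ a, ∑ b, ‖(Matrix.diagonal (fun a => (d i a : ℂ)) -
      (u : Matrix n n ℂ) * Matrix.diagonal (fun a => (d' i a : ℂ)) * star (u : Matrix n n ℂ)) a b‖ ^ 2 =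
      ∑ s : Equiv.Perm n, w s * ∑ a, (d i a - d' i (s a)) ^ 2 := fun i => by
    have a1 : ∀ M : Matrix n n ℂ, ∑ a, ∑ b, ‖M a b‖ ^ 2 = ∑ a, ∑ b, ‖(M * (u : Matrix n n ℂ)) a b‖ ^ 2 := fun M => by
      rw [matB_frob, matB_frob, star_mul, mul_assoc, ← mul_assoc (u : Matrix n n ℂ), h1, one_mul]
    rw [a1, sub_mul, mul_assoc _ (star (u : Matrix n n ℂ)), h2, mul_one]
    simp only [Finset.mul_sum]
    rw [Finset.sum_comm (γ := Equiv.Perm n)]
    refine Finset.sum_congr rfl fun a _ => ?_
    have a2 : ∀ b, ‖(Matrix.diagonal (fun a => (d i a : ℂ)) * (u : Matrix n n ℂ) -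
        (u : Matrix n n ℂ) * Matrix.diagonal (fun a => (d' i a : ℂ))) a b‖ ^ 2 = P a b * (d i a - d' i b) ^ 2 := fun b => by
      rw [Matrix.sub_apply, Matrix.mul_diagonal, Matrix.diagonal_mul, mul_comm (d i a : ℂ), ← mul_sub, norm_mul, mul_pow,
        ← Complex.ofReal_sub, Complex.norm_real, Real.norm_eq_abs, sq_abs]
      rfl
    simp only [a2, hPw, Finset.sum_mul]
    rw [Finset.sum_comm]
    simp only [ite_mul, zero_mul, Finset.sum_ite_eq, Finset.mem_univ, if_true]
  simp only [e1]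
  rw [Finset.sum_comm]
  simp only [← Finset.mul_sum]
  obtain ⟨s₀, hs₀⟩ : (Finset.univ.filter fun s => w s ≠ 0).Nonempty := by
    by_contra h
    rw [← Finset.sum_filter_ne_zero, Finset.not_nonempty_iff_eq_empty.1 h] at hw1
    simp at hw1
  obtain ⟨s, hs, hmin⟩ := Finset.exists_min_image (Finset.univ.filter fun s => w s ≠ 0)
    (fun s : Equiv.Perm n => ∑ i, ∑ a, (d i a - d' i (s a)) ^ 2) ⟨s₀, hs₀⟩
  refine ⟨s, fun a => by_contra fun h => (Finset.mem_filter.1 hs).2 (le_antisymm ?_ (hw0 s)), ?_⟩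
  · have a1 : P a (s a) = 0 := by simp [P, hu a (s a) (Ne.symm h)]
    rw [← a1, hPw]
    simpa using Finset.single_le_sum (f := fun t : Equiv.Perm n => if t a = s a then w t else 0)
      (fun t _ => by split_ifs <;> simp [hw0]) (Finset.mem_univ s)
  · rw [← one_mul (∑ i, ∑ a, (d i a - d' i (s a)) ^ 2), ← hw1, Finset.sum_mul]
    refine Finset.sum_le_sum fun t _ => ?_
    by_cases h : w t = 0
    · simp [h]
    · exact mul_le_mul_of_nonneg_left (hmin t (by simpa using h)) (hw0 t)

end Crest.Agent.R330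

end
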