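import Crest.Agent.R330.Mat.A

/-! # Row 330, Mat/C (statements frozen; see `R330/Blueprint.lean`) -/

set_option autoImplicit false
set_option linter.unusedSectionVars false

noncomputable section

open MeasureTheory Filter Topology
open scoped InnerProductSpace ContDiff Matrix
open Crest.MathPhysics.MatrixQM (GammaNine)

namespace Crest.Agent.R330

variable {E F : Type} [NormedAddCommGroup E] [InnerProductSpace ℝ E] [FiniteDimensional ℝ E]
  [MeasurableSpace E] [BorelSpace E]
  [NormedAddCommGroup F] [InnerProductSpace ℂ F] [FiniteDimensional ℂ F]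
  {𝔤 : Lie E} (C : Cl (Th E) F) (σ : Spn)

/-- The trace form is the Frobenius form on Hermitian matrices. -/
theorem trace_mul_self_re {n : Type} [Fintype n] [DecidableEq n] {A : Matrix n n ℂ}
    (hA : A.IsHermitian) : (A * A).trace.re = ∑ a, ∑ b, ‖A a b‖ ^ 2 := by
  simp only [Matrix.trace, Matrix.diag, Matrix.mul_apply, Complex.re_sum]
  refine Finset.sum_congr rfl fun a _ => Finset.sum_congr rfl fun b _ => ?_
  have h : A b a = star (A a b) := (hA.apply b a).symm
  rw [h, Complex.star_def, Complex.mul_conj, Complex.ofReal_re, Complex.normSq_eq_norm_sq]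

namespace MatSys

variable {N : ℕ} (M : MatSys N 𝔤)

theorem injective : Function.Injective M.m := by
  rw [injective_iff_map_eq_zero]
  intro v hv
  have h := M.inner v v
  rw [hv] at h
  simpa using h

theorem norm_sq (v : E) : ‖v‖ ^ 2 = ∑ a, ∑ b, ‖M.m v a b‖ ^ 2 := by
  rw [← trace_mul_self_re (M.herm v), ← M.inner, real_inner_self_eq_norm_sq]

variable {K : Type} [Group K] [TopologicalSpace K] [IsTopologicalGroup K]
  [CompactSpace K] [MeasurableSpace K] [BorelSpace K] (Γ : Grp 𝔤 K)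

theorem matC_star_exp_I {n : Type} [Fintype n] [DecidableEq n] {A : Matrix n n ℂ}
    (hA : A.IsHermitian) :
    star (NormedSpace.exp (Complex.I • A)) = NormedSpace.exp (-(Complex.I • A)) := by
  rw [Matrix.star_eq_conjTranspose, ← Matrix.exp_conjTranspose, Matrix.conjTranspose_smul, hA.eq]
  simp

theorem matC_exp_add_scalar {n : Type} [Fintype n] [DecidableEq n] (A : Matrix n n ℂ) (z : ℂ) :
    NormedSpace.exp (A + z • (1 : Matrix n n ℂ)) = Complex.exp z • NormedSpace.exp A := by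
  have h1 : NormedSpace.exp (z • (1 : Matrix n n ℂ)) = Complex.exp z • (1 : Matrix n n ℂ) := by
    rw [Matrix.smul_one_eq_diagonal, Matrix.smul_one_eq_diagonal, Matrix.exp_diagonal]
    congr 1
    ext a
    rw [Pi.coe_exp, Complex.exp_eq_exp_ℂ]
  rw [Matrix.exp_add_of_commute _ _ ((Commute.one_right A).smul_right z), h1, Matrix.mul_smul,
    Matrix.mul_one]

theorem exists_act (u : Matrix.unitaryGroup (Fin N) ℂ) : ∃ k : K, ∀ v,
    M.m (Γ.act k v) = (u : Matrix (Fin N) (Fin N) ℂ) * M.m v * star (u : Matrix (Fin N) (Fin N) ℂ) := by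
  rcases Nat.eq_zero_or_pos N with rfl | hN
  · exact ⟨1, fun v => Subsingleton.elim _ _⟩
  obtain ⟨h, hh, hk, -⟩ := exists_exp_unitary u
  have hN' : (N : ℂ) ≠ 0 := by exact_mod_cast hN.ne'
  obtain ⟨t, ht⟩ : ∃ t : ℝ, t = h.trace.re / N := ⟨_, rfl⟩
  have htr : h.trace = (h.trace.re : ℂ) := by
    have h1 : star h.trace = h.trace := by rw [← Matrix.trace_conjTranspose, hh.eq]
    exact (Complex.conj_eq_iff_re.1 h1).symm
  have h1 : (h - (t : ℂ) • (1 : Matrix (Fin N) (Fin N) ℂ)).IsHermitian := by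
    refine hh.sub ?_
    unfold Matrix.IsHermitian
    rw [Matrix.conjTranspose_smul]; simp
  have h2 : (h - (t : ℂ) • (1 : Matrix (Fin N) (Fin N) ℂ)).trace = 0 := by
    rw [Matrix.trace_sub, Matrix.trace_smul, Matrix.trace_one, htr, ht]
    simp only [Fintype.card_fin, smul_eq_mul]
    push_cast
    field_simp
    ring
  obtain ⟨ξ, hξ⟩ := M.surj _ h1 h2
  obtain ⟨k, hkξ⟩ := Γ.of_exp ξ
  refine ⟨k, fun v => ?_⟩
  rw [hkξ, map_rexp'_br M.m M.br, hk, matC_star_exp_I hh, hξ]
  have e1 : Complex.I • (h - (t : ℂ) • (1 : Matrix (Fin N) (Fin N) ℂ)) =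
      Complex.I • h + (-(Complex.I * t)) • (1 : Matrix (Fin N) (Fin N) ℂ) := by
    rw [smul_sub, smul_smul, neg_smul, sub_eq_add_neg]
  have e2 : -(Complex.I • h + (-(Complex.I * t)) • (1 : Matrix (Fin N) (Fin N) ℂ)) =
      -(Complex.I • h) + (Complex.I * t) • (1 : Matrix (Fin N) (Fin N) ℂ) := by
    rw [neg_add, neg_smul, neg_neg]
  rw [e1, e2, matC_exp_add_scalar, matC_exp_add_scalar, Matrix.smul_mul, Matrix.smul_mul,
    Matrix.mul_smul, smul_smul, ← Complex.exp_add, neg_add_cancel, Complex.exp_zero, one_smul]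

theorem exists_unitary (k : K) : ∃ u : Matrix.unitaryGroup (Fin N) ℂ, ∀ v,
    M.m (Γ.act k v) = (u : Matrix (Fin N) (Fin N) ℂ) * M.m v * star (u : Matrix (Fin N) (Fin N) ℂ) := by
  obtain ⟨ξ, hξ⟩ := Γ.exp_of k
  refine ⟨⟨NormedSpace.exp (Complex.I • M.m ξ), exp_I_mem_unitary (M.herm ξ)⟩, fun v => ?_⟩
  rw [hξ, map_rexp'_br M.m M.br]
  show _ = NormedSpace.exp (Complex.I • M.m ξ) * M.m v * star (NormedSpace.exp (Complex.I • M.m ξ))
  rw [matC_star_exp_I (M.herm ξ)]

end MatSys

end Crest.Agent.R330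

end
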